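import Vale.Agent.P259.Main

open CategoryTheory

namespace Vale.Agent.Results.P259.EveryDisc

open Vale.Agent.P259

theorem result (E : GlobExt) (hE : IsCoherator E) :
    Nonempty (Units E) ∧
    (∃ D : E.C ⥤ CompactlyGenerated.{0, 0}, IsDiscFunctor D) ∧
    ∀ (D : E.C ⥤ CompactlyGenerated.{0, 0}) (hD : IsDiscFunctor D) (u : Units E),
      InducesEquiv WHE (WEq u) (PiInf D hD) :=
  ⟨units_nonempty hE, discFunctor_exists hE, inducesEquiv hE⟩

end Vale.Agent.Results.P259.EveryDisc
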